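import Vale.Agent.P317.Dual

/-! # P317: common bases when one matroid is almost paving or almost copaving -/

namespace Vale.Agent.Results.P317.PavingOrCopaving

open Vale.Agent.P317

theorem result (n r k : ℕ) (M1 M2 : Matroid (Fin n)) (h1 : HasRank M1 r) (h2 : HasRank M2 r)
    (hp : KPaving M2 r k ∨ KCopaving M2 r k) :
    ((commonBases M1 M2).Nonempty →
      (bases M1).card ≤ (n + 1) ^ (4 * k) * (commonBases M1 M2).card) ∧
    (∀ ε δ : ℝ, 0 < ε → ε < 1 → 0 < δ → δ < 1 → ∀ T : ℕ,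
      ((n : ℝ) + 1) ^ (8 * k) * Real.log (2 / δ) / (2 * ε ^ 2) ≤ (T : ℝ) →
        Accurate (bases M1) M1 M2 T ε δ) ∧
    (KPaving M1 r k ∨ KCopaving M1 r k →
      ((commonBases M1 M2).Nonempty →
        n.choose r ≤ (n + 1) ^ (8 * k) * (commonBases M1 M2).card) ∧
      (∀ ε δ : ℝ, 0 < ε → ε < 1 → 0 < δ → δ < 1 → ∀ T : ℕ,
        ((n : ℝ) + 1) ^ (16 * k) * Real.log (2 / δ) / (2 * ε ^ 2) ≤ (T : ℝ) →
          Accurate (Finset.powersetCard r Finset.univ) M1 M2 T ε δ)) := by
  classical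
  have hA : (commonBases M1 M2).Nonempty →
      (bases M1).card ≤ (n + 1) ^ (4 * k) * (commonBases M1 M2).card :=
    fun hne => ratio_card' h1.1 h2 hp hne
  have hpow : ∀ m : ℕ, (1 : ℝ) ≤ ((n : ℝ) + 1) ^ m := fun m =>
    one_le_pow₀ (by linarith [Nat.cast_nonneg (α := ℝ) n])
  refine ⟨hA, fun ε δ hε _ hδ hδ1 T hT => ?_, fun hp1 => ?_⟩
  · refine accurate h1 h2 (bases M1) h1.2 Finset.inter_subset_left (((n : ℝ) + 1) ^ (4 * k))
      (hpow _) (fun hne => by exact_mod_cast hA hne) ε δ hε hδ hδ1 T ?_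
    rw [← pow_mul, show 4 * k * 2 = 8 * k by ring]
    exact hT
  · have hB : (commonBases M1 M2).Nonempty →
        n.choose r ≤ (n + 1) ^ (8 * k) * (commonBases M1 M2).card := by
      intro hne
      obtain ⟨S, hS⟩ := hne
      have hSr : S.card = r := h1.2 S (mem_bases.2 (mem_commonBases.1 hS).1)
      have hrn : r ≤ n := by
        rw [← hSr]
        simpa using Finset.card_le_univ S
      have h3 := choose_le' h1 hp1 hrn
      have h4 := hA ⟨S, hS⟩
      calc n.choose r ≤ (n + 1) ^ (4 * k) * (bases M1).card := h3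
        _ ≤ (n + 1) ^ (4 * k) * ((n + 1) ^ (4 * k) * (commonBases M1 M2).card) :=
            Nat.mul_le_mul_left _ h4
        _ = (n + 1) ^ (8 * k) * (commonBases M1 M2).card := by ring
    refine ⟨hB, fun ε δ hε _ hδ hδ1 T hT => ?_⟩
    refine accurate h1 h2 _ (fun S hS => (Finset.mem_powersetCard.1 hS).2) ?_
      (((n : ℝ) + 1) ^ (8 * k)) (hpow _) (fun hne => ?_) ε δ hε hδ hδ1 T ?_
    · intro S hS
      exact Finset.mem_powersetCard.2 ⟨Finset.subset_univ _,
        h1.2 S (mem_bases.2 (mem_commonBases.1 hS).1)⟩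
    · rw [Finset.card_powersetCard, Finset.card_univ, Fintype.card_fin]
      exact_mod_cast hB hne
    · rw [← pow_mul, show 8 * k * 2 = 16 * k by ring]
      exact hT

end Vale.Agent.Results.P317.PavingOrCopaving
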